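import Vale.Agent.P224.R2.H662.C4d

/-!
The exponential row of the centred quadratic form `⟨x, W x⟩`, `W = J² - 1`: the tail is governed
by the Hilbert-Schmidt norm of `W`.
-/

namespace Vale.Agent.P224.R2.H714

open MeasureTheory Module Function Set Vale.Agent.P224.R2.H470 Vale.Agent.P224.R2.H662
open scoped RealInnerProductSpace Topology ContDiff

set_option linter.unusedSectionVars false

section

variable {X : Type*} {E : Type*} [NormedAddCommGroup E] [InnerProductSpace ℝ E]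
  [FiniteDimensional ℝ E] [TopologicalSpace X] [MeasurableSpace X] [CompactSpace X] [BorelSpace X]
  {μ : Measure X} [IsFiniteMeasure μ] {m : ℕ} {p n : X → E}

/-- the row of the field `φ(⟨x, B x⟩) A x` -/
theorem phi_row2 (h : OneP μ m p n) {A B : E →L[ℝ] E} (hA : ∀ u v, ⟪A u, v⟫ = ⟪u, A v⟫)
    (hB : ∀ u v, ⟪B u, v⟫ = ⟪u, B v⟫)
    {φ φ' : ℝ → ℝ} (hφ : ContDiff ℝ ∞ φ) (hd : ∀ s, HasDerivAt φ (φ' s) s) (hc : Continuous φ') :
    (m + 1) * ∫ x, ⟪p x, A (p x)⟫ * φ ⟪p x, B (p x)⟫ ∂μ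
      = ∫ x, (φ ⟪p x, B (p x)⟫ * LinearMap.trace ℝ E (A : E →ₗ[ℝ] E)
          - φ ⟪p x, B (p x)⟫ * ⟪n x, A (n x)⟫
          + 2 * φ' ⟪p x, B (p x)⟫ * (⟪B (p x), A (p x)⟫ - ⟪p x, B (p x)⟫ * ⟪p x, A (p x)⟫
            - ⟪B (p x), n x⟫ * ⟪A (p x), n x⟫)) ∂μ := by
  have cp := h.cp
  have cn := h.cn
  have cφ : Continuous φ := hφ.continuous
  set e := stdOrthonormalBasis ℝ E with he
  have hq : ContDiff ℝ ∞ (fun u : E => ⟪u, B u⟫) := contDiff_id.inner ℝ B.contDiff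
  have hW : ContDiff ℝ ∞ (fun u : E => φ ⟪u, B u⟫ • A u) := (hφ.comp hq).smul A.contDiff
  have hdW : ∀ u, HasFDerivAt (fun u : E => φ ⟪u, B u⟫ • A u)
      (φ ⟪u, B u⟫ • A + (φ' ⟪u, B u⟫ • ((2 : ℝ) • innerSL ℝ (B u))).smulRight (A u)) u := fun u =>
    ((hd _).comp_hasFDerivAt u (hasFD_quad hB u)).smul (A.hasFDerivAt (x := u))
  have hcW : Continuous fun u : E =>
      (φ ⟪u, B u⟫ • A + (φ' ⟪u, B u⟫ • ((2 : ℝ) • innerSL ℝ (B u))).smulRight (A u)) := by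
    refine continuous_clm_apply.2 fun y => ?_
    simp only [_root_.add_apply, _root_.smul_apply, ContinuousLinearMap.smulRight_apply,
      innerSL_apply_apply, smul_eq_mul]
    fun_prop
  have h1 := h.rv hW hdW hcW
  have htr : ∀ u : E, LinearMap.trace ℝ E
      ((φ ⟪u, B u⟫ • A + (φ' ⟪u, B u⟫ • ((2 : ℝ) • innerSL ℝ (B u))).smulRight (A u)
        : E →L[ℝ] E) : E →ₗ[ℝ] E)
      = φ ⟪u, B u⟫ * LinearMap.trace ℝ E (A : E →ₗ[ℝ] E) + 2 * φ' ⟪u, B u⟫ * ⟪B u, A u⟫ := by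
    intro u
    rw [LinearMap.trace_eq_sum_inner _ e, LinearMap.trace_eq_sum_inner _ e,
      ← e.sum_inner_mul_inner (B u) (A u), Finset.mul_sum,
      Finset.mul_sum, ← Finset.sum_add_distrib]
    refine Finset.sum_congr rfl fun i _ => ?_
    simp only [ContinuousLinearMap.coe_coe, _root_.add_apply, _root_.smul_apply,
      ContinuousLinearMap.smulRight_apply, innerSL_apply_apply, smul_eq_mul, inner_add_right,
      inner_smul_right]
    ring
  simp only [htr] at h1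
  simp only [_root_.add_apply, _root_.smul_apply,
      ContinuousLinearMap.smulRight_apply, innerSL_apply_apply, smul_eq_mul, inner_add_left,
      inner_smul_left, inner_smul_right, RCLike.conj_to_real] at h1
  have e2 : ∀ x, φ ⟪p x, B (p x)⟫ * LinearMap.trace ℝ E (A : E →ₗ[ℝ] E)
        + 2 * φ' ⟪p x, B (p x)⟫ * ⟪B (p x), A (p x)⟫
      - (φ ⟪p x, B (p x)⟫ * ⟪A (p x), p x⟫
        + φ' ⟪p x, B (p x)⟫ * (2 * ⟪B (p x), p x⟫) * ⟪A (p x), p x⟫)
      - (φ ⟪p x, B (p x)⟫ * ⟪A (n x), n x⟫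
        + φ' ⟪p x, B (p x)⟫ * (2 * ⟪B (p x), n x⟫) * ⟪A (p x), n x⟫)
      = (φ ⟪p x, B (p x)⟫ * LinearMap.trace ℝ E (A : E →ₗ[ℝ] E)
          - φ ⟪p x, B (p x)⟫ * ⟪n x, A (n x)⟫
          + 2 * φ' ⟪p x, B (p x)⟫ * (⟪B (p x), A (p x)⟫ - ⟪p x, B (p x)⟫ * ⟪p x, A (p x)⟫
            - ⟪B (p x), n x⟫ * ⟪A (p x), n x⟫))
        - ⟪p x, A (p x)⟫ * φ ⟪p x, B (p x)⟫ := by
    intro x
    rw [hA (p x) (p x), hB (p x) (p x), hA (n x) (n x)]
    ring
  simp only [e2] at h1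
  have e3 : ∫ x, φ ⟪p x, B (p x)⟫ * ⟪p x, A (p x)⟫ ∂μ
      = ∫ x, ⟪p x, A (p x)⟫ * φ ⟪p x, B (p x)⟫ ∂μ := by
    refine integral_congr_ae (Filter.Eventually.of_forall fun x => ?_)
    simp only
    ring
  have c3 : Continuous fun x => (φ ⟪p x, B (p x)⟫ * LinearMap.trace ℝ E (A : E →ₗ[ℝ] E)
          - φ ⟪p x, B (p x)⟫ * ⟪n x, A (n x)⟫
          + 2 * φ' ⟪p x, B (p x)⟫ * (⟪B (p x), A (p x)⟫ - ⟪p x, B (p x)⟫ * ⟪p x, A (p x)⟫
            - ⟪B (p x), n x⟫ * ⟪A (p x), n x⟫)) := by fun_prop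
  rw [integral_sub (int_of_cont c3) (int_of_cont (by fun_prop)), e3] at h1
  linarith

/-- the projected Cauchy-Schwarz inequality -/
lemma proj_cs {u v w : E} (hw : ‖w‖ = 1) : ⟪u, v⟫ - ⟪u, w⟫ * ⟪v, w⟫ ≤ ‖u‖ * ‖v‖ := by
  have h1 : ⟪u, v⟫ - ⟪u, w⟫ * ⟪v, w⟫ = ⟪u - ⟪u, w⟫ • w, v⟫ := by
    rw [inner_sub_left, inner_smul_left, RCLike.conj_to_real, real_inner_comm v w]
  have h2 : ‖u - ⟪u, w⟫ • w‖ ^ 2 = ‖u‖ ^ 2 - ⟪u, w⟫ ^ 2 := by
    rw [norm_sub_sq_real, inner_smul_right, norm_smul, hw, mul_one, Real.norm_eq_abs, sq_abs]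
    ring
  have h3 : ‖u - ⟪u, w⟫ • w‖ ≤ ‖u‖ := by
    refine le_of_sq_le_sq ?_ (norm_nonneg _)
    rw [h2]
    nlinarith [sq_nonneg ⟪u, w⟫]
  rw [h1]
  exact (real_inner_le_norm _ _).trans (mul_le_mul_of_nonneg_right h3 (norm_nonneg _))

variable {ι : Type*} [Fintype ι]

/-- the exponential rows of a diagonal form `q = ∑ w x²`, `-1 ≤ w ≤ M`, `1 ≤ M` -/
theorem exp_rows_w (h : OneP μ m p n) (b : OrthonormalBasis ι ℝ E) {w : ι → ℝ} {M l : ℝ}
    (hw1 : ∀ a, -1 ≤ w a) (hwM : ∀ a, w a ≤ M) (hM : 1 ≤ M) (hl : 0 ≤ l)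
    (hlM : 2 * l * (M + 1) < m + 1) :
    (m + 1) * ∫ x, ⟪p x, dop b w (p x)⟫ * Real.exp (l * ⟪p x, dop b w (p x)⟫) ∂μ
      ≤ (∑ a, w a + 1 + 2 * l * (∑ a, w a ^ 2) / (m + 1 - 2 * l * (M + 1)))
        * ∫ x, Real.exp (l * ⟪p x, dop b w (p x)⟫) ∂μ := by
  have cp := h.cp
  have cn := h.cn
  have hφ : ContDiff ℝ ∞ (fun s : ℝ => Real.exp (l * s)) := by fun_prop
  have hd : ∀ s : ℝ, HasDerivAt (fun s : ℝ => Real.exp (l * s)) (l * Real.exp (l * s)) s := by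
    intro s
    have h1 : HasDerivAt (fun s : ℝ => l * s) l s := by simpa using (hasDerivAt_id s).const_mul l
    have h2 := h1.exp
    rwa [mul_comm] at h2
  have rA := phi_row2 h (dop_symm b w) (dop_symm b w) hφ hd (by fun_prop)
  have rB := phi_row2 h (dop_symm b fun a => w a ^ 2) (dop_symm b w) hφ hd (by fun_prop)
  rw [trace_dop] at rA rB
  have habs : ∀ a, |w a| ≤ M := fun a => abs_le.2 ⟨by linarith [hw1 a], hwM a⟩
  -- pointwise bounds
  have n2 : ∀ u : E, ‖dop b w u‖ ^ 2 = ⟪u, dop b (fun a => w a ^ 2) u⟫ := by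
    intro u
    rw [norm_dop_sq, inner_dop]
    exact Finset.sum_congr rfl fun a _ => by ring
  have q1 : ∀ u : E, ‖u‖ = 1 → -1 ≤ ⟪u, dop b w u⟫ := by
    intro u hu
    have e : ∑ a, (-1 : ℝ) * (⟪u, b a⟫ * ⟪u, b a⟫) = -1 := by
      rw [← Finset.mul_sum]
      have := b.sum_sq_norm_inner_left u
      rw [hu] at this
      simp only [Real.norm_eq_abs, sq_abs] at this
      simp only [← sq, this]
      norm_num
    rw [inner_dop, ← e]
    exact Finset.sum_le_sum fun a _ => mul_le_mul_of_nonneg_right (hw1 a) (mul_self_nonneg _)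
  have n0 : ∀ u : E, 0 ≤ ⟪u, dop b (fun a => w a ^ 2) u⟫ := by
    intro u
    rw [← n2]
    exact sq_nonneg _
  have nn : ∀ u : E, ‖dop b (fun a => w a ^ 2) u‖ ≤ M * ‖dop b w u‖ := by
    intro u
    have h1 : ‖dop b (fun a => w a ^ 2) u‖ ^ 2 ≤ (M * ‖dop b w u‖) ^ 2 := by
      rw [mul_pow, norm_dop_sq, norm_dop_sq, Finset.mul_sum]
      refine Finset.sum_le_sum fun a _ => ?_
      have k : w a ^ 2 ≤ M ^ 2 := by
        rw [← sq_abs (w a)]
        exact pow_le_pow_left₀ (abs_nonneg _) (habs a) 2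
      have k2 := mul_le_mul_of_nonneg_right k (mul_nonneg (sq_nonneg (w a)) (sq_nonneg ⟪u, b a⟫))
      calc (w a ^ 2) ^ 2 * ⟪u, b a⟫ ^ 2 = w a ^ 2 * (w a ^ 2 * ⟪u, b a⟫ ^ 2) := by ring
        _ ≤ _ := k2
    exact le_of_sq_le_sq h1 (mul_nonneg (by linarith) (norm_nonneg _))
  set F := ∫ x, Real.exp (l * ⟪p x, dop b w (p x)⟫) ∂μ with hF
  set Y := ∫ x, ⟪p x, dop b (fun a => w a ^ 2) (p x)⟫
    * Real.exp (l * ⟪p x, dop b w (p x)⟫) ∂μ with hY
  have iB : (m + 1) * Y ≤ (∑ a, w a ^ 2) * F + 2 * l * (M + 1) * Y := by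
    rw [rB, hF, hY, ← integral_const_mul, ← integral_const_mul,
      ← integral_add (int_of_cont (by fun_prop)) (int_of_cont (by fun_prop))]
    refine integral_mono (int_of_cont (by fun_prop)) (int_of_cont (by fun_prop)) fun x => ?_
    simp only
    have k1 := n0 (n x)
    have k2 := proj_cs (u := dop b w (p x)) (v := dop b (fun a => w a ^ 2) (p x)) (h.nn x)
    have k3 := mul_le_mul_of_nonneg_left (nn (p x)) (norm_nonneg (dop b w (p x)))
    have k4 : ‖dop b w (p x)‖ * (M * ‖dop b w (p x)‖)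
        = M * ⟪p x, dop b (fun a => w a ^ 2) (p x)⟫ := by rw [← n2]; ring
    have k5 := q1 (p x) (h.np x)
    have k6 := n0 (p x)
    set ee := Real.exp (l * ⟪p x, dop b w (p x)⟫) with hee
    have ee0 : 0 < ee := Real.exp_pos _
    set y := ⟪p x, dop b (fun a => w a ^ 2) (p x)⟫
    set q := ⟪p x, dop b w (p x)⟫
    have k7 : ⟪dop b w (p x), dop b (fun a => w a ^ 2) (p x)⟫ - q * y
        - ⟪dop b w (p x), n x⟫ * ⟪dop b (fun a => w a ^ 2) (p x), n x⟫ ≤ (M + 1) * y := by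
      nlinarith [mul_nonneg (by linarith : (0 : ℝ) ≤ q + 1) k6]
    have k8 := mul_le_mul_of_nonneg_left k7 (by positivity : (0 : ℝ) ≤ 2 * (l * ee))
    have k9 : 0 ≤ ee * ⟪n x, dop b (fun a => w a ^ 2) (n x)⟫ := mul_nonneg ee0.le k1
    linarith
  have iA : (m + 1) * ∫ x, ⟪p x, dop b w (p x)⟫ * Real.exp (l * ⟪p x, dop b w (p x)⟫) ∂μ
      ≤ (∑ a, w a + 1) * F + 2 * l * Y := by
    rw [rA, hF, hY, ← integral_const_mul, ← integral_const_mul,
      ← integral_add (int_of_cont (by fun_prop)) (int_of_cont (by fun_prop))]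
    refine integral_mono (int_of_cont (by fun_prop)) (int_of_cont (by fun_prop)) fun x => ?_
    simp only
    have k1 := q1 (n x) (h.nn x)
    have k4 : ⟪dop b w (p x), dop b w (p x)⟫
        = ⟪p x, dop b (fun a => w a ^ 2) (p x)⟫ := by rw [real_inner_self_eq_norm_sq, n2]
    rw [k4]
    set ee := Real.exp (l * ⟪p x, dop b w (p x)⟫) with hee
    have ee0 : 0 < ee := Real.exp_pos _
    set y := ⟪p x, dop b (fun a => w a ^ 2) (p x)⟫
    set q := ⟪p x, dop b w (p x)⟫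
    have k7 : y - q * q - ⟪dop b w (p x), n x⟫ * ⟪dop b w (p x), n x⟫ ≤ y := by
      nlinarith [mul_self_nonneg q, mul_self_nonneg ⟪dop b w (p x), n x⟫]
    have k8 := mul_le_mul_of_nonneg_left k7 (by positivity : (0 : ℝ) ≤ 2 * (l * ee))
    have k9 : 0 ≤ ee * (⟪n x, dop b w (n x)⟫ + 1) := mul_nonneg ee0.le (by linarith)
    linarith
  have hp : 0 < (m : ℝ) + 1 - 2 * l * (M + 1) := by linarith
  have hYb : Y ≤ (∑ a, w a ^ 2) / (m + 1 - 2 * l * (M + 1)) * F := by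
    rw [div_mul_eq_mul_div, le_div_iff₀ hp]
    linarith
  have h9 := mul_le_mul_of_nonneg_left hYb (by positivity : (0 : ℝ) ≤ 2 * l)
  refine iA.trans ?_
  have e : (∑ a, w a + 1 + 2 * l * (∑ a, w a ^ 2) / (m + 1 - 2 * l * (M + 1))) * F
      = (∑ a, w a + 1) * F + 2 * l * ((∑ a, w a ^ 2) / (m + 1 - 2 * l * (M + 1)) * F) := by
    ring
  rw [e]
  linarith

/-- the row for `|J x|²`: threshold `1 + t + 2 l D² / (1 - 2 l (K + e))` -/
theorem exp_row_J (h : OneP μ m p n) (b : OrthonormalBasis ι ℝ E)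
    {j : ι → ℝ} {l e t K D : ℝ} (he : 1 ≤ e * (m + 1)) (hK : ∀ a, j a ^ 2 - 1 ≤ K * (m + 1))
    (hK1 : 1 ≤ K * (m + 1)) (ht : ∑ a, (j a ^ 2 - 1) + 1 ≤ t * (m + 1))
    (hD : ∑ a, (j a ^ 2 - 1) ^ 2 ≤ D ^ 2 * (m + 1) ^ 2) (hl : 0 ≤ l)
    (hlk : 2 * l * (K + e) < 1) :
    ∫ x, Real.exp (l * qd b j p x)
      * (qd b j p x - (1 + t + 2 * l * D ^ 2 / (1 - 2 * l * (K + e)))) ∂μ ≤ 0 := by
  have cp := h.cp
  have hm : (0 : ℝ) < m + 1 := by positivity
  have hlM : 2 * l * (K * (m + 1) + 1) < m + 1 := by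
    have h1 : 2 * l * (K * (m + 1) + 1) ≤ (2 * l * (K + e)) * (m + 1) := by
      have := mul_le_mul_of_nonneg_left he (by positivity : (0 : ℝ) ≤ 2 * l)
      linarith
    nlinarith
  have h1 := exp_rows_w (μ := μ) h b (w := fun a => j a ^ 2 - 1) (M := K * (m + 1)) (l := l)
    (fun a => by nlinarith [sq_nonneg (j a)]) hK hK1 hl hlM
  have hq : ∀ x, ⟪p x, dop b (fun a => j a ^ 2 - 1) (p x)⟫ = qd b j p x - 1 := by
    intro x
    rw [inner_dop]
    have := b.sum_sq_norm_inner_left (p x)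
    rw [h.np] at this
    simp only [Real.norm_eq_abs, sq_abs] at this
    have e1 : ∑ a, (j a ^ 2 - 1) * (⟪p x, b a⟫ * ⟪p x, b a⟫)
        = ∑ a, j a ^ 2 * ⟪p x, b a⟫ ^ 2 - ∑ a, ⟪p x, b a⟫ ^ 2 := by
      rw [← Finset.sum_sub_distrib]
      exact Finset.sum_congr rfl fun a _ => by ring
    rw [e1, this]
    simp [qd]
  simp only [hq] at h1
  have cq : Continuous fun x => qd b j p x := by
    unfold qd
    fun_prop
  set s := 1 + t + 2 * l * D ^ 2 / (1 - 2 * l * (K + e)) with hs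
  have hexp : ∀ x, Real.exp (l * (qd b j p x - 1)) = Real.exp (-l) * Real.exp (l * qd b j p x) := by
    intro x
    rw [← Real.exp_add]
    congr 1
    ring
  -- the coefficient
  have hp : 0 < (m : ℝ) + 1 - 2 * l * (K * (m + 1) + 1) := by linarith
  have hp' : 0 < 1 - 2 * l * (K + e) := by linarith
  have hco : ∑ a, (j a ^ 2 - 1) + 1 + 2 * l * (∑ a, (j a ^ 2 - 1) ^ 2)
      / (m + 1 - 2 * l * (K * (m + 1) + 1)) ≤ (m + 1) * (s - 1) := by
    have k1 : 2 * l * (∑ a, (j a ^ 2 - 1) ^ 2) / (m + 1 - 2 * l * (K * (m + 1) + 1))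
        ≤ 2 * l * (D ^ 2 * (m + 1) ^ 2) / ((1 - 2 * l * (K + e)) * (m + 1)) := by
      refine div_le_div₀ (by positivity) (mul_le_mul_of_nonneg_left hD (by positivity))
        (by positivity) ?_
      have := mul_le_mul_of_nonneg_left he (by positivity : (0 : ℝ) ≤ 2 * l)
      linarith
    have k2 : 2 * l * (D ^ 2 * (m + 1) ^ 2) / ((1 - 2 * l * (K + e)) * (m + 1))
        = (m + 1) * (2 * l * D ^ 2 / (1 - 2 * l * (K + e))) := by
      field_simp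
    rw [k2] at k1
    rw [hs]
    linarith
  have hF0 : 0 ≤ ∫ x, Real.exp (l * (qd b j p x - 1)) ∂μ :=
    integral_nonneg fun x => (Real.exp_pos _).le
  have h2 := h1.trans (mul_le_mul_of_nonneg_right hco hF0)
  have h3 : ∫ x, (qd b j p x - 1) * Real.exp (l * (qd b j p x - 1)) ∂μ
      ≤ (s - 1) * ∫ x, Real.exp (l * (qd b j p x - 1)) ∂μ := by
    rw [mul_assoc] at h2
    exact le_of_mul_le_mul_left h2 hm
  have h4 : ∫ x, Real.exp (l * qd b j p x) * (qd b j p x - s) ∂μ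
      = Real.exp l * (∫ x, (qd b j p x - 1) * Real.exp (l * (qd b j p x - 1)) ∂μ
        - (s - 1) * ∫ x, Real.exp (l * (qd b j p x - 1)) ∂μ) := by
    rw [← integral_const_mul (s - 1), ← integral_sub (int_of_cont (by fun_prop))
      (int_of_cont (by fun_prop)), ← integral_const_mul]
    refine integral_congr_ae (Filter.Eventually.of_forall fun x => ?_)
    simp only
    rw [hexp]
    have : Real.exp l * Real.exp (-l) = 1 := by rw [← Real.exp_add]; simp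
    linear_combination (-(Real.exp (l * qd b j p x) * (qd b j p x - s))) * this
  rw [h4]
  exact mul_nonpos_of_nonneg_of_nonpos (Real.exp_pos _).le (by linarith)

end

end Vale.Agent.P224.R2.H714
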