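import Vale.Agent.P224.R2.H714.Row
import Vale.Agent.P224.R2.H590.Eq2

/-!
The weighted radius `E |Jx| |z|²`: bounded by `R E |z|²` plus a tail.
-/

namespace Vale.Agent.P224.R2.H714

open MeasureTheory Module Function Set Vale.Agent.P224.R2.H470 Vale.Agent.P224.R2.H662
  Vale.Agent.P224.R2.H728
open scoped RealInnerProductSpace Topology ContDiff

set_option linter.unusedSectionVars false

/-- scalar inequality for `(|Jx| - R)₊ (1 + |Jx|)²` -/
lemma numR {l s R g a : ℝ} (hl : 0 < l) (hR : 0 < R) (hg : 0 < g) (hs : s + g ≤ R ^ 2)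
    (ha : 0 < a) (hal : a ≤ 2 * l * R - 2 / (1 + R)) (t : ℝ) (ht : R ≤ t) :
    (t - R) * (1 + t) ^ 2
      ≤ ((1 + R) ^ 2 / (a * g) * Real.exp (-1) * Real.exp (-(l * R ^ 2)))
        * (Real.exp (l * t ^ 2) * (t ^ 2 - s)) := by
  obtain ⟨d, hd, rfl⟩ : ∃ d : ℝ, 0 ≤ d ∧ t = R + d := ⟨t - R, by linarith, by ring⟩
  have h1 : g ≤ (R + d) ^ 2 - s := by nlinarith [mul_nonneg hR.le hd]
  have hR1 : 0 < 1 + R := by linarith
  -- `(1+R+d)² ≤ (1+R)² e^{2d/(1+R)}`
  have h2 : (1 + (R + d)) ^ 2 ≤ (1 + R) ^ 2 * Real.exp (2 / (1 + R) * d) := by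
    have k1 := Real.add_one_le_exp (d / (1 + R))
    have k2 : 1 + (R + d) = (1 + R) * (d / (1 + R) + 1) := by field_simp; ring
    rw [k2, mul_pow]
    refine mul_le_mul_of_nonneg_left ?_ (sq_nonneg _)
    calc (d / (1 + R) + 1) ^ 2 ≤ Real.exp (d / (1 + R)) ^ 2 :=
          pow_le_pow_left₀ (by positivity) k1 2
      _ = Real.exp (2 / (1 + R) * d) := by
          rw [← Real.exp_nat_mul]
          congr 1
          push_cast
          ring
  -- `d ≤ e^{a d - 1}/a`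
  have h3 : d ≤ Real.exp (-1) * Real.exp (a * d) / a := by
    rw [le_div_iff₀ ha, ← Real.exp_add]
    have k1 := Real.add_one_le_exp (a * d - 1)
    have k2 : -1 + a * d = a * d - 1 := by ring
    rw [k2]
    linarith
  have h4 : Real.exp (a * d) * Real.exp (2 / (1 + R) * d)
      ≤ Real.exp (-(l * R ^ 2)) * Real.exp (l * (R + d) ^ 2) := by
    rw [← Real.exp_add, ← Real.exp_add]
    refine Real.exp_le_exp.2 ?_
    have k1 := mul_le_mul_of_nonneg_right hal hd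
    have k2 : 0 ≤ l * d ^ 2 := by positivity
    linarith
  have e1 : R + d - R = d := by ring
  rw [e1]
  calc d * (1 + (R + d)) ^ 2
      ≤ (Real.exp (-1) * Real.exp (a * d) / a) * ((1 + R) ^ 2 * Real.exp (2 / (1 + R) * d)) :=
        mul_le_mul h3 h2 (sq_nonneg _) (by positivity)
    _ = (1 + R) ^ 2 / a * Real.exp (-1) * (Real.exp (a * d) * Real.exp (2 / (1 + R) * d)) := by
        ring
    _ ≤ (1 + R) ^ 2 / a * Real.exp (-1)
        * (Real.exp (-(l * R ^ 2)) * Real.exp (l * (R + d) ^ 2)) :=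
        mul_le_mul_of_nonneg_left h4 (by positivity)
    _ = ((1 + R) ^ 2 / (a * g) * Real.exp (-1) * Real.exp (-(l * R ^ 2)))
        * (Real.exp (l * (R + d) ^ 2) * g) := by
        field_simp
    _ ≤ _ := by
        refine mul_le_mul_of_nonneg_left ?_ (by positivity)
        exact mul_le_mul_of_nonneg_left h1 (Real.exp_pos _).le

section

variable {X : Type*} {E : Type*} [NormedAddCommGroup E] [InnerProductSpace ℝ E]
  [FiniteDimensional ℝ E] [TopologicalSpace X] [MeasurableSpace X] [CompactSpace X] [BorelSpace X]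
  {μ : Measure X} {m : ℕ} {p n : X → E} {ι : Type*} [Fintype ι]

/-- `E |Jx| |z|² ≤ R E |z|² + tail`, from the exponential row with threshold `s` -/
theorem rs_row [IsProbabilityMeasure μ] (h : OneP μ m p n) (b : OrthonormalBasis ι ℝ E)
    {j : ι → ℝ} {l s R g a : ℝ} (hl : 0 < l) (hR : 0 < R) (hg : 0 < g) (hs : s + g ≤ R ^ 2)
    (ha : 0 < a) (hal : a ≤ 2 * l * R - 2 / (1 + R))
    (hrow : ∫ x, Real.exp (l * qd b j p x) * (qd b j p x - s) ∂μ ≤ 0) :
    ∫ x, √(qd b j p x) * ad b j p n x ∂μ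
      ≤ R * ∫ x, ad b j p n x ∂μ + (1 + R) ^ 2 / (a * g * l) * Real.exp (-(l * g) - 2) := by
  have cp := h.cp
  have cn := h.cn
  have cq : Continuous fun x => qd b j p x := by
    unfold qd
    fun_prop
  have ca : Continuous fun x => ad b j p n x := by
    unfold ad
    fun_prop
  have hi : Integrable (fun x => Real.exp (l * qd b j p x) * (qd b j p x - s)) μ :=
    int_of_cont (by fun_prop)
  set K := (1 + R) ^ 2 / (a * g) * Real.exp (-1) * Real.exp (-(l * R ^ 2)) with hK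
  have hK0 : 0 ≤ K := by positivity
  have ha0 : ∀ x, 0 ≤ ad b j p n x := fun x => ad_nonneg b j x
  have h1 := tail_of_row hl hK0 hi hrow
    (w := fun x => √(qd b j p x) * ad b j p n x - R * ad b j p n x)
    (int_of_cont (by fun_prop)) fun x => ?_
  · rw [integral_sub (int_of_cont (by fun_prop)) (int_of_cont (by fun_prop)),
      integral_const_mul] at h1
    have h2 : K * (Real.exp (l * s - 1) / l)
        ≤ (1 + R) ^ 2 / (a * g * l) * Real.exp (-(l * g) - 2) := by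
      have e1 : K * (Real.exp (l * s - 1) / l)
          = (1 + R) ^ 2 / (a * g * l)
            * (Real.exp (-1) * Real.exp (-(l * R ^ 2)) * Real.exp (l * s - 1)) := by
        rw [hK]
        field_simp
      rw [e1, ← Real.exp_add, ← Real.exp_add]
      refine mul_le_mul_of_nonneg_left (Real.exp_le_exp.2 ?_) (by positivity)
      nlinarith
    linarith
  · have s1 : 0 ≤ √(qd b j p x) := Real.sqrt_nonneg _
    have s2 : √(qd b j p x) ^ 2 = qd b j p x := Real.sq_sqrt (qd_nonneg b j x)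
    have e0 : 0 ≤ K * (Real.exp (l * qd b j p x) * max (qd b j p x - s) 0) :=
      mul_nonneg hK0 (mul_nonneg (Real.exp_pos _).le (le_max_right _ _))
    rcases le_total (√(qd b j p x)) R with hc | hc
    · have : (√(qd b j p x) - R) * ad b j p n x ≤ 0 :=
        mul_nonpos_of_nonpos_of_nonneg (by linarith) (ha0 x)
      linarith
    · have h4 := numR hl hR hg hs ha hal _ hc
      rw [s2] at h4
      have h5 : √(qd b j p x) * ad b j p n x - R * ad b j p n x
          ≤ (√(qd b j p x) - R) * (1 + √(qd b j p x)) ^ 2 := by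
        have k1 : √(qd b j p x) * ad b j p n x - R * ad b j p n x
            = (√(qd b j p x) - R) * ad b j p n x := by ring
        rw [k1]
        exact mul_le_mul_of_nonneg_left (ad_le h b j x) (by linarith)
      refine h5.trans (h4.trans (mul_le_mul_of_nonneg_left ?_ hK0))
      exact mul_le_mul_of_nonneg_left (le_max_left _ _) (Real.exp_pos _).le

variable [DecidableEq ι]

/-- the exponential row of the least squares matrix in terms of `‖De‖ ≤ δ`: threshold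
`s = 1 + δ D + e + 2 l D² / (1 - 2 l (D + e))`, where `D (1-δ) ≥ (1+e) √(δ² + 2 e H)`,
`e ≥ 1/(m+1)`, `hh ≤ H` -/
theorem row_De (h : OneP μ m p n) (b : OrthonormalBasis ι ℝ E) {j : ι → ℝ}
    (hT : T0Data μ m (cob b p) (cob b n))
    (hL : LSq μ (Matrix.diagonal j) (cob b p) (cob b n)) {δ e H D l : ℝ}
    (hδ : 0 ≤ δ) (hδ1 : δ < 1) (hf : fro (De μ (cob b p) (cob b n)) ≤ δ ^ 2)
    (hH : hh μ (Matrix.diagonal j) (cob b p) (cob b n) ≤ H)
    (he : 1 ≤ e * (m + 1)) (heD : e ≤ D)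
    (hD : (1 + e) ^ 2 * (δ ^ 2 + 2 * e * H) ≤ (D * (1 - δ)) ^ 2) (hl : 0 ≤ l)
    (hlk : 2 * l * (D + e) < 1) :
    ∫ x, Real.exp (l * qd b j p x)
      * (qd b j p x - (1 + (δ * D + e) + 2 * l * D ^ 2 / (1 - 2 * l * (D + e)))) ∂μ ≤ 0 := by
  have := hT.prob
  have hm : (0 : ℝ) ≤ m := Nat.cast_nonneg m
  have hm1 : (0 : ℝ) < m + 1 := by linarith
  have h1δ : 0 < 1 - δ := by linarith
  have he0 : 0 < e := by
    by_contra hc
    push Not at hc
    nlinarith
  have hh0 : 0 ≤ hh μ (Matrix.diagonal j) (cob b p) (cob b n) := hT.hh_nonneg _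
  have hD0 : 0 < D := by linarith
  -- the norm of the weights
  have w2 : ∑ a, (j a ^ 2 - 1) ^ 2 ≤ D ^ 2 * ((m : ℝ) + 1) ^ 2 := by
    refine (H590.w_sq hT hm hL hδ hδ1 hf).trans ?_
    rw [← mul_div_assoc, div_le_iff₀ (by positivity)]
    have k1 : ((m : ℝ) + 2) ≤ (1 + e) * (m + 1) := by linarith
    have k2 : ((m : ℝ) + 2) ^ 2 ≤ ((1 + e) * (m + 1)) ^ 2 := pow_le_pow_left₀ (by linarith) k1 2
    have k3 : 2 / ((m : ℝ) + 1) ≤ 2 * e := by
      rw [div_le_iff₀ hm1]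
      linarith
    have k4 : δ ^ 2 + 2 / ((m : ℝ) + 1) * hh μ (Matrix.diagonal j) (cob b p) (cob b n)
        ≤ δ ^ 2 + 2 * e * H := by
      have := mul_le_mul k3 hH hh0 (by positivity)
      linarith
    have k5 : 0 ≤ δ ^ 2 + 2 / ((m : ℝ) + 1) * hh μ (Matrix.diagonal j) (cob b p) (cob b n) := by
      positivity
    calc ((m : ℝ) + 2) ^ 2 * (δ ^ 2 + 2 / ((m : ℝ) + 1)
            * hh μ (Matrix.diagonal j) (cob b p) (cob b n))
        ≤ ((1 + e) * (m + 1)) ^ 2 * (δ ^ 2 + 2 * e * H) := mul_le_mul k2 k4 k5 (sq_nonneg _)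
      _ = ((1 + e) ^ 2 * (δ ^ 2 + 2 * e * H)) * (m + 1) ^ 2 := by ring
      _ ≤ (D * (1 - δ)) ^ 2 * (m + 1) ^ 2 := mul_le_mul_of_nonneg_right hD (sq_nonneg _)
      _ = D ^ 2 * ((m : ℝ) + 1) ^ 2 * (1 - δ) ^ 2 := by ring
  have w2' : ∑ a, (j a ^ 2 - 1) ^ 2 ≤ (D * ((m : ℝ) + 1)) ^ 2 := by rw [mul_pow]; exact w2
  have wM : ∀ a, j a ^ 2 - 1 ≤ D * ((m : ℝ) + 1) := by
    intro a
    have k1 : (j a ^ 2 - 1) ^ 2 ≤ ∑ a, (j a ^ 2 - 1) ^ 2 :=
      Finset.single_le_sum (f := fun a => (j a ^ 2 - 1) ^ 2) (fun b _ => sq_nonneg _)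
        (Finset.mem_univ a)
    exact (le_abs_self _).trans (abs_le_of_sq_le_sq (k1.trans w2') (by positivity))
  have wt : ∑ a, (j a ^ 2 - 1) ≤ δ * (D * (m + 1)) :=
    hT.w_tr_le hm hL hδ hf (by positivity) w2'
  refine exp_row_J h b he wM ?_ ?_ w2 hl hlk
  · refine he.trans (mul_le_mul_of_nonneg_right heD hm1.le)
  · linarith

/-- **the weighted radius**: `E |Jx| |z|² ≤ R hh + tail` for the least squares matrix -/
theorem rs_le (h : OneP μ m p n) (b : OrthonormalBasis ι ℝ E) {j : ι → ℝ}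
    (hT : T0Data μ m (cob b p) (cob b n))
    (hL : LSq μ (Matrix.diagonal j) (cob b p) (cob b n)) {δ e H D l R g a : ℝ}
    (hδ : 0 ≤ δ) (hδ1 : δ < 1) (hf : fro (De μ (cob b p) (cob b n)) ≤ δ ^ 2)
    (hH : hh μ (Matrix.diagonal j) (cob b p) (cob b n) ≤ H)
    (he : 1 ≤ e * (m + 1)) (heD : e ≤ D)
    (hD : (1 + e) ^ 2 * (δ ^ 2 + 2 * e * H) ≤ (D * (1 - δ)) ^ 2) (hl : 0 < l)
    (hlk : 2 * l * (D + e) < 1) (hR : 0 < R) (hg : 0 < g)
    (hs : 1 + (δ * D + e) + 2 * l * D ^ 2 / (1 - 2 * l * (D + e)) + g ≤ R ^ 2)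
    (ha : 0 < a) (hal : a ≤ 2 * l * R - 2 / (1 + R)) :
    ∫ x, √(∑ a, j a ^ 2 * cob b p a x ^ 2)
        * (∑ a, zd j (cob b p) (cob b n) a x * zd j (cob b p) (cob b n) a x) ∂μ
      ≤ R * hh μ (Matrix.diagonal j) (cob b p) (cob b n)
        + (1 + R) ^ 2 / (a * g * l) * Real.exp (-(l * g) - 2) := by
  have := hT.prob
  have h1 := rs_row h b hl hR hg hs ha hal (row_De h b hT hL hδ hδ1 hf hH he heD hD hl.le hlk)
  have e2 : ∫ x, ad b j p n x ∂μ = hh μ (Matrix.diagonal j) (cob b p) (cob b n) := by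
    simp only [ad_eq]
    rfl
  rw [e2] at h1
  refine le_trans (le_of_eq ?_) h1
  refine integral_congr_ae (Filter.Eventually.of_forall fun x => ?_)
  simp only
  congr 1
  unfold ad
  exact Finset.sum_congr rfl fun a _ => by
    simp only [zd, cob]
    ring

/-- numeric form: `k ≤ l g + 2`, tail `≤ ε` -/
theorem rs_num (h : OneP μ m p n) (b : OrthonormalBasis ι ℝ E) {j : ι → ℝ}
    (hT : T0Data μ m (cob b p) (cob b n))
    (hL : LSq μ (Matrix.diagonal j) (cob b p) (cob b n)) {δ e H D l R g a ε : ℝ} (k : ℕ)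
    (hδ : 0 ≤ δ) (hδ1 : δ < 1) (hf : fro (De μ (cob b p) (cob b n)) ≤ δ ^ 2)
    (hH : hh μ (Matrix.diagonal j) (cob b p) (cob b n) ≤ H)
    (he : 1 ≤ e * (m + 1)) (heD : e ≤ D)
    (hD : (1 + e) ^ 2 * (δ ^ 2 + 2 * e * H) ≤ (D * (1 - δ)) ^ 2) (hl : 0 < l)
    (hlk : 2 * l * (D + e) < 1) (hR : 0 < R) (hg : 0 < g)
    (hs : 1 + (δ * D + e) + 2 * l * D ^ 2 / (1 - 2 * l * (D + e)) + g ≤ R ^ 2)
    (ha : 0 < a) (hal : a ≤ 2 * l * R - 2 / (1 + R)) {f : ℝ} (hf0 : 0 ≤ f)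
    (hk : k + f ≤ l * g + 2)
    (hε : (1 + R) ^ 2 / (a * g * l) * ((500 / 1359) ^ k / (1 + f + f ^ 2 / 2)) ≤ ε) :
    ∫ x, √(∑ a, j a ^ 2 * cob b p a x ^ 2)
        * (∑ a, zd j (cob b p) (cob b n) a x * zd j (cob b p) (cob b n) a x) ∂μ
      ≤ R * hh μ (Matrix.diagonal j) (cob b p) (cob b n) + ε := by
  have h1 := rs_le h b hT hL hδ hδ1 hf hH he heD hD hl hlk hR hg hs ha hal
  have e1 : -(l * g) - 2 = -(l * g + 2) := by ring
  have h2 : Real.exp (-(l * g + 2)) ≤ (500 / 1359) ^ k / (1 + f + f ^ 2 / 2) := by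
    have k1 : Real.exp (-(l * g + 2)) ≤ Real.exp (-(k : ℝ)) * Real.exp (-f) := by
      rw [← Real.exp_add]
      exact Real.exp_le_exp.2 (by linarith)
    have k2 : Real.exp (-(k : ℝ)) ≤ (500 / 1359) ^ k := by
      have h2 : Real.exp (-(k : ℝ)) = (Real.exp 1 ^ k)⁻¹ := by
        rw [← Real.exp_nat_mul, ← Real.exp_neg, mul_one]
      rw [h2]
      have h3 : (500 / 1359 : ℝ) ^ k = ((1359 / 500) ^ k)⁻¹ := by
        rw [← inv_pow]
        norm_num
      rw [h3]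
      have h4 := Real.exp_one_gt_d9
      exact inv_anti₀ (by positivity) (pow_le_pow_left₀ (by norm_num) (by linarith) k)
    have k3 : Real.exp (-f) ≤ (1 + f + f ^ 2 / 2)⁻¹ := by
      rw [Real.exp_neg]
      exact inv_anti₀ (by positivity) (Real.quadratic_le_exp_of_nonneg hf0)
    rw [div_eq_mul_inv]
    exact k1.trans (mul_le_mul k2 k3 (Real.exp_pos _).le (by positivity))
  rw [e1] at h1
  have h3 := mul_le_mul_of_nonneg_left h2
    (by positivity : 0 ≤ (1 + R) ^ 2 / (a * g * l))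
  linarith

end

end Vale.Agent.P224.R2.H714
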