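import Vale.Agent.P224.R2.H714.RsQ

/-!
Kernel form of the weighted squared radius: rational data, one Boolean.
-/

namespace Vale.Agent.P224.R2.H714

open MeasureTheory Module Function Set Vale.Agent.P224.R2.H470 Vale.Agent.P224.R2.H662
  Vale.Agent.P224.R2.H728
open scoped RealInnerProductSpace Topology ContDiff

set_option linter.unusedSectionVars false

/-- scalar inequality for `(|Jx|² - R²)₊ (1 + |Jx|)²` -/
lemma numR2 {l s R g a : ℝ} (hl : 0 < l) (hR : 0 < R) (hg : 0 < g) (hs : s + g ≤ R ^ 2)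
    (ha : 0 < a) (hal : a ≤ 2 * l * R - 2 / (1 + R) - 1 / (2 * R)) (t : ℝ) (ht : R ≤ t) :
    (t ^ 2 - R ^ 2) * (1 + t) ^ 2
      ≤ (2 * R * (1 + R) ^ 2 / (a * g) * Real.exp (-1) * Real.exp (-(l * R ^ 2)))
        * (Real.exp (l * t ^ 2) * (t ^ 2 - s)) := by
  obtain ⟨d, hd, rfl⟩ : ∃ d : ℝ, 0 ≤ d ∧ t = R + d := ⟨t - R, by linarith, by ring⟩
  have h1 : g ≤ (R + d) ^ 2 - s := by nlinarith [mul_nonneg hR.le hd]
  have hR1 : 0 < 1 + R := by linarith
  have h2 : (1 + (R + d)) ^ 2 ≤ (1 + R) ^ 2 * Real.exp (2 / (1 + R) * d) := by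
    have k1 := Real.add_one_le_exp (d / (1 + R))
    have k2 : 1 + (R + d) = (1 + R) * (d / (1 + R) + 1) := by field_simp; ring
    rw [k2, mul_pow]
    refine mul_le_mul_of_nonneg_left ?_ (sq_nonneg _)
    calc (d / (1 + R) + 1) ^ 2 ≤ Real.exp (d / (1 + R)) ^ 2 :=
          pow_le_pow_left₀ (by positivity) k1 2
      _ = Real.exp (2 / (1 + R) * d) := by
          rw [← Real.exp_nat_mul]
          congr 1
          push_cast
          ring
  have h3 : d ≤ Real.exp (-1) * Real.exp (a * d) / a := by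
    rw [le_div_iff₀ ha, ← Real.exp_add]
    have k1 := Real.add_one_le_exp (a * d - 1)
    have k2 : -1 + a * d = a * d - 1 := by ring
    rw [k2]
    linarith
  have h3' : (R + d) ^ 2 - R ^ 2 ≤ 2 * R * d * Real.exp (1 / (2 * R) * d) := by
    have k1 := Real.add_one_le_exp (1 / (2 * R) * d)
    have k2 : (R + d) ^ 2 - R ^ 2 = 2 * R * d * (1 / (2 * R) * d + 1) := by field_simp; ring
    rw [k2]
    exact mul_le_mul_of_nonneg_left k1 (by positivity)
  have h4 : Real.exp (a * d) * Real.exp (1 / (2 * R) * d) * Real.exp (2 / (1 + R) * d)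
      ≤ Real.exp (-(l * R ^ 2)) * Real.exp (l * (R + d) ^ 2) := by
    rw [← Real.exp_add, ← Real.exp_add, ← Real.exp_add]
    refine Real.exp_le_exp.2 ?_
    have k1 := mul_le_mul_of_nonneg_right hal hd
    have k2 : 0 ≤ l * d ^ 2 := by positivity
    linarith
  have h5 : (R + d) ^ 2 - R ^ 2
      ≤ 2 * R / a * Real.exp (-1) * (Real.exp (a * d) * Real.exp (1 / (2 * R) * d)) := by
    refine h3'.trans ?_
    have k := mul_le_mul_of_nonneg_right h3 (by positivity : 0 ≤ 2 * R * Real.exp (1 / (2 * R) * d))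
    calc 2 * R * d * Real.exp (1 / (2 * R) * d) = d * (2 * R * Real.exp (1 / (2 * R) * d)) := by
          ring
      _ ≤ _ := k
      _ = _ := by ring
  have h6 : 0 ≤ (R + d) ^ 2 - R ^ 2 := by nlinarith [mul_nonneg hR.le hd]
  calc ((R + d) ^ 2 - R ^ 2) * (1 + (R + d)) ^ 2
      ≤ (2 * R / a * Real.exp (-1) * (Real.exp (a * d) * Real.exp (1 / (2 * R) * d)))
        * ((1 + R) ^ 2 * Real.exp (2 / (1 + R) * d)) :=
        mul_le_mul h5 h2 (sq_nonneg _) (by positivity)
    _ = 2 * R * (1 + R) ^ 2 / a * Real.exp (-1)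
        * (Real.exp (a * d) * Real.exp (1 / (2 * R) * d) * Real.exp (2 / (1 + R) * d)) := by
        ring
    _ ≤ 2 * R * (1 + R) ^ 2 / a * Real.exp (-1)
        * (Real.exp (-(l * R ^ 2)) * Real.exp (l * (R + d) ^ 2)) :=
        mul_le_mul_of_nonneg_left h4 (by positivity)
    _ = (2 * R * (1 + R) ^ 2 / (a * g) * Real.exp (-1) * Real.exp (-(l * R ^ 2)))
        * (Real.exp (l * (R + d) ^ 2) * g) := by
        field_simp
    _ ≤ _ := by
        refine mul_le_mul_of_nonneg_left ?_ (by positivity)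
        exact mul_le_mul_of_nonneg_left h1 (Real.exp_pos _).le

section

variable {X : Type*} {E : Type*} [NormedAddCommGroup E] [InnerProductSpace ℝ E]
  [FiniteDimensional ℝ E] [TopologicalSpace X] [MeasurableSpace X] [CompactSpace X] [BorelSpace X]
  {μ : Measure X} {m : ℕ} {p n : X → E} {ι : Type*} [Fintype ι]

/-- `E |Jx|² |z|² ≤ R² E |z|² + tail`, from the exponential row with threshold `s` -/
theorem r2_row [IsProbabilityMeasure μ] (h : OneP μ m p n) (b : OrthonormalBasis ι ℝ E)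
    {j : ι → ℝ} {l s R g a : ℝ} (hl : 0 < l) (hR : 0 < R) (hg : 0 < g) (hs : s + g ≤ R ^ 2)
    (ha : 0 < a) (hal : a ≤ 2 * l * R - 2 / (1 + R) - 1 / (2 * R))
    (hrow : ∫ x, Real.exp (l * qd b j p x) * (qd b j p x - s) ∂μ ≤ 0) :
    ∫ x, qd b j p x * ad b j p n x ∂μ
      ≤ R ^ 2 * ∫ x, ad b j p n x ∂μ
        + 2 * R * (1 + R) ^ 2 / (a * g * l) * Real.exp (-(l * g) - 2) := by
  have cp := h.cp
  have cn := h.cn
  have cq : Continuous fun x => qd b j p x := by
    unfold qd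
    fun_prop
  have ca : Continuous fun x => ad b j p n x := by
    unfold ad
    fun_prop
  have hi : Integrable (fun x => Real.exp (l * qd b j p x) * (qd b j p x - s)) μ :=
    int_of_cont (by fun_prop)
  set K := 2 * R * (1 + R) ^ 2 / (a * g) * Real.exp (-1) * Real.exp (-(l * R ^ 2)) with hK
  have hK0 : 0 ≤ K := by positivity
  have ha0 : ∀ x, 0 ≤ ad b j p n x := fun x => ad_nonneg b j x
  have h1 := tail_of_row hl hK0 hi hrow
    (w := fun x => qd b j p x * ad b j p n x - R ^ 2 * ad b j p n x)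
    (int_of_cont (by fun_prop)) fun x => ?_
  · rw [integral_sub (int_of_cont (by fun_prop)) (int_of_cont (by fun_prop)),
      integral_const_mul] at h1
    have h2 : K * (Real.exp (l * s - 1) / l)
        ≤ 2 * R * (1 + R) ^ 2 / (a * g * l) * Real.exp (-(l * g) - 2) := by
      have e1 : K * (Real.exp (l * s - 1) / l)
          = 2 * R * (1 + R) ^ 2 / (a * g * l)
            * (Real.exp (-1) * Real.exp (-(l * R ^ 2)) * Real.exp (l * s - 1)) := by
        rw [hK]
        field_simp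
      rw [e1, ← Real.exp_add, ← Real.exp_add]
      refine mul_le_mul_of_nonneg_left (Real.exp_le_exp.2 ?_) (by positivity)
      nlinarith
    linarith
  · have s1 : 0 ≤ √(qd b j p x) := Real.sqrt_nonneg _
    have s2 : √(qd b j p x) ^ 2 = qd b j p x := Real.sq_sqrt (qd_nonneg b j x)
    have e0 : 0 ≤ K * (Real.exp (l * qd b j p x) * max (qd b j p x - s) 0) :=
      mul_nonneg hK0 (mul_nonneg (Real.exp_pos _).le (le_max_right _ _))
    rcases le_total (√(qd b j p x)) R with hc | hc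
    · have k1 : qd b j p x ≤ R ^ 2 := by
        rw [← s2]
        exact pow_le_pow_left₀ s1 hc 2
      have : (qd b j p x - R ^ 2) * ad b j p n x ≤ 0 :=
        mul_nonpos_of_nonpos_of_nonneg (by linarith) (ha0 x)
      linarith
    · have h4 := numR2 hl hR hg hs ha hal _ hc
      rw [s2] at h4
      have k1 : R ^ 2 ≤ qd b j p x := by
        rw [← s2]
        exact pow_le_pow_left₀ hR.le hc 2
      have h5 : qd b j p x * ad b j p n x - R ^ 2 * ad b j p n x
          ≤ (qd b j p x - R ^ 2) * (1 + √(qd b j p x)) ^ 2 := by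
        have k1 : qd b j p x * ad b j p n x - R ^ 2 * ad b j p n x
            = (qd b j p x - R ^ 2) * ad b j p n x := by ring
        rw [k1]
        exact mul_le_mul_of_nonneg_left (ad_le h b j x) (by linarith)
      refine h5.trans (h4.trans (mul_le_mul_of_nonneg_left ?_ hK0))
      exact mul_le_mul_of_nonneg_left (le_max_left _ _) (Real.exp_pos _).le

variable [DecidableEq ι]

/-- **the weighted squared radius** for the least squares matrix -/
theorem r2_le (h : OneP μ m p n) (b : OrthonormalBasis ι ℝ E) {j : ι → ℝ}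
    (hT : T0Data μ m (cob b p) (cob b n))
    (hL : LSq μ (Matrix.diagonal j) (cob b p) (cob b n)) {δ e H D l R g a : ℝ}
    (hδ : 0 ≤ δ) (hδ1 : δ < 1) (hf : fro (De μ (cob b p) (cob b n)) ≤ δ ^ 2)
    (hH : hh μ (Matrix.diagonal j) (cob b p) (cob b n) ≤ H)
    (he : 1 ≤ e * (m + 1)) (heD : e ≤ D)
    (hD : (1 + e) ^ 2 * (δ ^ 2 + 2 * e * H) ≤ (D * (1 - δ)) ^ 2) (hl : 0 < l)
    (hlk : 2 * l * (D + e) < 1) (hR : 0 < R) (hg : 0 < g)
    (hs : 1 + (δ * D + e) + 2 * l * D ^ 2 / (1 - 2 * l * (D + e)) + g ≤ R ^ 2)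
    (ha : 0 < a) (hal : a ≤ 2 * l * R - 2 / (1 + R) - 1 / (2 * R)) :
    ∫ x, H590.rr j (cob b p) x ^ 2 * H590.sz j (cob b p) (cob b n) x ∂μ
      ≤ R ^ 2 * hh μ (Matrix.diagonal j) (cob b p) (cob b n)
        + 2 * R * (1 + R) ^ 2 / (a * g * l) * Real.exp (-(l * g) - 2) := by
  have := hT.prob
  have h1 := r2_row h b hl hR hg hs ha hal (row_De h b hT hL hδ hδ1 hf hH he heD hD hl.le hlk)
  have e2 : ∫ x, ad b j p n x ∂μ = hh μ (Matrix.diagonal j) (cob b p) (cob b n) := by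
    simp only [ad_eq]
    rfl
  rw [e2] at h1
  refine le_trans (le_of_eq ?_) h1
  refine integral_congr_ae (Filter.Eventually.of_forall fun x => ?_)
  simp only
  rw [H590.rr_sq]
  unfold H590.sz ad qd
  congr 1
  exact Finset.sum_congr rfl fun a _ => by
    simp only [zd, cob]
    ring

end

/-- data of the weighted squared radius: `int |Jx|² |z|² ≤ R² hh + eps` -/
structure R2T where
  /-- exponent -/
  l : ℚ
  /-- radius -/
  R : ℚ
  /-- gap -/
  g : ℚ
  /-- slope -/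
  a : ℚ
  /-- fractional part of the exponent -/
  f : ℚ
  /-- tail -/
  eps : ℚ
  /-- norm of the weights over `m + 1` -/
  D : ℚ
  /-- integer part of the exponent -/
  k : ℕ

/-- `e ≥ 1/(m+1)`, `fro De ≤ d²`, `hh ≤ H` -/
def r2OK (e d H : ℚ) (r : R2T) : Bool :=
  decide (0 ≤ d) && decide (d < 1) && decide (e ≤ r.D) && decide (0 < r.l) && decide (0 < r.R)
    && decide (0 < r.g) && decide (0 < r.a) && decide (0 ≤ r.f)
    && decide (2 * r.l * (r.D + e) < 1)
    && decide ((1 + e) ^ 2 * (d ^ 2 + 2 * e * H) ≤ (r.D * (1 - d)) ^ 2)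
    && decide (1 + (d * r.D + e) + 2 * r.l * r.D ^ 2 / (1 - 2 * r.l * (r.D + e)) + r.g ≤ r.R ^ 2)
    && decide (r.a ≤ 2 * r.l * r.R - 2 / (1 + r.R) - 1 / (2 * r.R))
    && decide (r.k + r.f ≤ r.l * r.g + 2)
    && decide (2 * r.R * (1 + r.R) ^ 2 / (r.a * r.g * r.l)
      * ((500 / 1359) ^ r.k / (1 + r.f + r.f ^ 2 / 2)) ≤ r.eps)

lemma exp_num {x f : ℝ} {k : ℕ} (hf0 : 0 ≤ f) (hk : k + f ≤ x) :
    Real.exp (-x) ≤ (500 / 1359) ^ k / (1 + f + f ^ 2 / 2) := by
  have k1 : Real.exp (-x) ≤ Real.exp (-(k : ℝ)) * Real.exp (-f) := by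
    rw [← Real.exp_add]
    exact Real.exp_le_exp.2 (by linarith)
  have k2 : Real.exp (-(k : ℝ)) ≤ (500 / 1359) ^ k := by
    have h2 : Real.exp (-(k : ℝ)) = (Real.exp 1 ^ k)⁻¹ := by
      rw [← Real.exp_nat_mul, ← Real.exp_neg, mul_one]
    rw [h2]
    have h3 : (500 / 1359 : ℝ) ^ k = ((1359 / 500) ^ k)⁻¹ := by
      rw [← inv_pow]
      norm_num
    rw [h3]
    have h4 := Real.exp_one_gt_d9
    exact inv_anti₀ (by positivity) (pow_le_pow_left₀ (by norm_num) (by linarith) k)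
  have k3 : Real.exp (-f) ≤ (1 + f + f ^ 2 / 2)⁻¹ := by
    rw [Real.exp_neg]
    exact inv_anti₀ (by positivity) (Real.quadratic_le_exp_of_nonneg hf0)
  rw [div_eq_mul_inv]
  exact k1.trans (mul_le_mul k2 k3 (Real.exp_pos _).le (by positivity))

section

variable {X : Type*} {E : Type*} [NormedAddCommGroup E] [InnerProductSpace ℝ E]
  [FiniteDimensional ℝ E] [TopologicalSpace X] [MeasurableSpace X] [CompactSpace X] [BorelSpace X]
  {μ : Measure X} {m : ℕ} {p n : X → E} {ι : Type*} [Fintype ι] [DecidableEq ι]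

/-- **the weighted squared radius from one Boolean** -/
theorem r2_ok (h : OneP μ m p n) (b : OrthonormalBasis ι ℝ E) {j : ι → ℝ}
    (hT : T0Data μ m (cob b p) (cob b n))
    (hL : LSq μ (Matrix.diagonal j) (cob b p) (cob b n)) {e d H : ℚ} {r : R2T}
    (hr : r2OK e d H r = true) (he : 1 ≤ (e : ℝ) * (m + 1))
    (hf : fro (De μ (cob b p) (cob b n)) ≤ (d : ℝ) ^ 2)
    (hH : hh μ (Matrix.diagonal j) (cob b p) (cob b n) ≤ H) :
    ∫ x, H590.rr j (cob b p) x ^ 2 * H590.sz j (cob b p) (cob b n) x ∂μ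
      ≤ (r.R : ℝ) ^ 2 * hh μ (Matrix.diagonal j) (cob b p) (cob b n) + r.eps := by
  unfold r2OK at hr
  simp only [Bool.and_eq_true, decide_eq_true_eq] at hr
  obtain ⟨⟨⟨⟨⟨⟨⟨⟨⟨⟨⟨⟨⟨h1, h2⟩, h3⟩, h4⟩, h5⟩, h6⟩, h7⟩, h8⟩, h9⟩, h10⟩, h11⟩, h12⟩, h13⟩, h14⟩ := hr
  have g1 : (0 : ℝ) < r.l := by exact_mod_cast h4
  have g2 : (0 : ℝ) < r.R := by exact_mod_cast h5
  have g3 : (0 : ℝ) < r.g := by exact_mod_cast h6
  have g4 : (0 : ℝ) < r.a := by exact_mod_cast h7
  have k1 := r2_le h b hT hL (δ := d) (e := e) (H := H) (D := r.D) (l := r.l) (R := r.R) (g := r.g)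
    (a := r.a) (by exact_mod_cast h1) (by exact_mod_cast h2) hf hH he (by exact_mod_cast h3)
    (by exact_mod_cast h10) g1 (by exact_mod_cast h9) g2 g3
    (by exact_mod_cast h11) g4 (by exact_mod_cast h12)
  have k2 := exp_num (x := r.l * r.g + 2) (f := r.f) (k := r.k) (by exact_mod_cast h8)
    (by exact_mod_cast h13)
  have e1 : -((r.l : ℝ) * r.g) - 2 = -(r.l * r.g + 2) := by ring
  rw [e1] at k1
  have h15 : ((2 * r.R * (1 + r.R) ^ 2 / (r.a * r.g * r.l)
      * ((500 / 1359) ^ r.k / (1 + r.f + r.f ^ 2 / 2)) : ℚ) : ℝ) ≤ r.eps := by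
    exact_mod_cast h14
  push_cast at h15
  have k3 := mul_le_mul_of_nonneg_left k2
    (by positivity : (0 : ℝ) ≤ 2 * r.R * (1 + r.R) ^ 2 / (r.a * r.g * r.l))
  linarith

end

end Vale.Agent.P224.R2.H714
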