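import Vale.Agent.P224.R2.H714.Rs
import Vale.Agent.P224.R2.H590.ElKB

/-!
Kernel form of the weighted radius: rational data, one Boolean.
-/

namespace Vale.Agent.P224.R2.H714

open MeasureTheory Module Function Set Vale.Agent.P224.R2.H470 Vale.Agent.P224.R2.H662
  Vale.Agent.P224.R2.H728
open scoped RealInnerProductSpace Topology ContDiff

set_option linter.unusedSectionVars false

/-- data of the weighted radius: `int |Jx| |z|² ≤ R hh + eps` -/
structure RsT where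
  /-- exponent -/
  l : ℚ
  /-- radius -/
  R : ℚ
  /-- gap -/
  g : ℚ
  /-- slope -/
  a : ℚ
  /-- fractional part of the exponent -/
  f : ℚ
  /-- tail -/
  eps : ℚ
  /-- norm of the weights over `m + 1` -/
  D : ℚ
  /-- integer part of the exponent -/
  k : ℕ

/-- `e ≥ 1/(m+1)`, `fro De ≤ d²`, `hh ≤ H` -/
def rsOK (e d H : ℚ) (r : RsT) : Bool :=
  decide (0 ≤ d) && decide (d < 1) && decide (e ≤ r.D) && decide (0 < r.l) && decide (0 < r.R)
    && decide (0 < r.g) && decide (0 < r.a) && decide (0 ≤ r.f)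
    && decide (2 * r.l * (r.D + e) < 1)
    && decide ((1 + e) ^ 2 * (d ^ 2 + 2 * e * H) ≤ (r.D * (1 - d)) ^ 2)
    && decide (1 + (d * r.D + e) + 2 * r.l * r.D ^ 2 / (1 - 2 * r.l * (r.D + e)) + r.g ≤ r.R ^ 2)
    && decide (r.a ≤ 2 * r.l * r.R - 2 / (1 + r.R))
    && decide (r.k + r.f ≤ r.l * r.g + 2)
    && decide ((1 + r.R) ^ 2 / (r.a * r.g * r.l)
      * ((500 / 1359) ^ r.k / (1 + r.f + r.f ^ 2 / 2)) ≤ r.eps)

section

variable {X : Type*} {E : Type*} [NormedAddCommGroup E] [InnerProductSpace ℝ E]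
  [FiniteDimensional ℝ E] [TopologicalSpace X] [MeasurableSpace X] [CompactSpace X] [BorelSpace X]
  {μ : Measure X} {m : ℕ} {p n : X → E} {ι : Type*} [Fintype ι] [DecidableEq ι]

/-- **the weighted radius from one Boolean**, in the language of the mean normal law -/
theorem rs_ok (h : OneP μ m p n) (b : OrthonormalBasis ι ℝ E) {j : ι → ℝ}
    (hT : T0Data μ m (cob b p) (cob b n))
    (hL : LSq μ (Matrix.diagonal j) (cob b p) (cob b n)) {e d H : ℚ} {r : RsT}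
    (hr : rsOK e d H r = true) (he : 1 ≤ (e : ℝ) * (m + 1))
    (hf : fro (De μ (cob b p) (cob b n)) ≤ (d : ℝ) ^ 2)
    (hH : hh μ (Matrix.diagonal j) (cob b p) (cob b n) ≤ H) :
    ∫ x, H590.rr j (cob b p) x * H590.sz j (cob b p) (cob b n) x ∂μ
      ≤ r.R * hh μ (Matrix.diagonal j) (cob b p) (cob b n) + r.eps := by
  unfold rsOK at hr
  simp only [Bool.and_eq_true, decide_eq_true_eq] at hr
  obtain ⟨⟨⟨⟨⟨⟨⟨⟨⟨⟨⟨⟨⟨h1, h2⟩, h3⟩, h4⟩, h5⟩, h6⟩, h7⟩, h8⟩, h9⟩, h10⟩, h11⟩, h12⟩, h13⟩, h14⟩ := hr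
  refine rs_num h b hT hL (δ := d) (e := e) (H := H) (D := r.D) (l := r.l) (R := r.R) (g := r.g)
    (a := r.a) (ε := r.eps) r.k ?_ ?_ hf hH he ?_ ?_ ?_ ?_ ?_ ?_ ?_ ?_ ?_ (f := r.f) ?_ ?_ ?_
  · exact_mod_cast h1
  · exact_mod_cast h2
  · exact_mod_cast h3
  · exact_mod_cast h10
  · exact_mod_cast h4
  · exact_mod_cast h9
  · exact_mod_cast h5
  · exact_mod_cast h6
  · exact_mod_cast h11
  · exact_mod_cast h7
  · exact_mod_cast h12
  · exact_mod_cast h8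
  · exact_mod_cast h13
  · have h15 : (((1 + r.R) ^ 2 / (r.a * r.g * r.l)
      * ((500 / 1359) ^ r.k / (1 + r.f + r.f ^ 2 / 2)) : ℚ) : ℝ) ≤ r.eps := by
      exact_mod_cast h14
    push_cast at h15
    exact h15

/-- the affine form on a cell `ha ≤ hh`: `int |Jx| |z|² ≤ rb hh` with `R + eps/ha ≤ rb` -/
theorem rs_ok_rb (h : OneP μ m p n) (b : OrthonormalBasis ι ℝ E) {j : ι → ℝ}
    (hT : T0Data μ m (cob b p) (cob b n))
    (hL : LSq μ (Matrix.diagonal j) (cob b p) (cob b n)) {e d H ha rb : ℚ} {r : RsT}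
    (hr : rsOK e d H r = true) (hrb : 0 < ha ∧ 0 ≤ r.eps ∧ r.R + r.eps / ha ≤ rb)
    (he : 1 ≤ (e : ℝ) * (m + 1))
    (hf : fro (De μ (cob b p) (cob b n)) ≤ (d : ℝ) ^ 2)
    (hha : (ha : ℝ) ≤ hh μ (Matrix.diagonal j) (cob b p) (cob b n))
    (hH : hh μ (Matrix.diagonal j) (cob b p) (cob b n) ≤ H) :
    ∫ x, H590.rr j (cob b p) x * H590.sz j (cob b p) (cob b n) x ∂μ
      ≤ rb * hh μ (Matrix.diagonal j) (cob b p) (cob b n) := by
  have h1 := rs_ok h b hT hL hr he hf hH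
  obtain ⟨k1, k2, k3⟩ := hrb
  have k1' : (0 : ℝ) < ha := by exact_mod_cast k1
  have k2' : (0 : ℝ) ≤ r.eps := by exact_mod_cast k2
  have k3' : (r.R : ℝ) + r.eps / ha ≤ rb := by exact_mod_cast k3
  set η := hh μ (Matrix.diagonal j) (cob b p) (cob b n) with hη
  have h2 : (r.eps : ℝ) ≤ r.eps / ha * η := by
    rw [div_mul_eq_mul_div, le_div_iff₀ k1']
    exact mul_le_mul_of_nonneg_left hha k2'
  have h3 : 0 ≤ η := k1'.le.trans hha
  have h4 := mul_le_mul_of_nonneg_right k3' h3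
  linarith

end

end Vale.Agent.P224.R2.H714
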